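import Mathlib
import Crest.Prelude.Def_ModularData

/-!
# S0112 (row 84) — assembly glue (helper2)

Lemmas for the assembly step of `notes/s0112/PROOF.md` that need none of the packages A–H:

* `abs_windowMean_le`, `ultraMean_tendsto`, `exists_window` (step I.1 and "k large");
* `windowMean_eq`, `windowMean_le_add` (window means as interval integrals, comparison);
* `sq_norm_perturb`, `sq_norm_le_two_add` (scalar parts of I.3 and I.6);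
* `exists_of_avg` (the pigeonhole of I.6);
* `final_extraction` (step I.7: the per-`n` core statement gives the statement of S0112).
-/

set_option autoImplicit false

namespace Crest.Agent.Helper2.S0112

open Filter MeasureTheory Crest.OpAlg
open scoped Topology

/-- The window means of a bounded function are bounded by the same constant. -/
theorem abs_windowMean_le (g : ℝ → ℝ) (B : ℝ) (hg : ∀ t, |g t| ≤ B) (k : ℕ) :
    |windowMean g k| ≤ B := by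
  have hB : 0 ≤ B := (abs_nonneg _).trans (hg 0)
  unfold windowMean
  rw [setAverage_eq, smul_eq_mul, abs_mul]
  have hfin : volume (Set.Icc (-(k : ℝ)) (k : ℝ)) < ⊤ := by
    rw [Real.volume_Icc]; exact ENNReal.ofReal_lt_top
  have h1 : |∫ t in Set.Icc (-(k : ℝ)) (k : ℝ), g t| ≤
      B * volume.real (Set.Icc (-(k : ℝ)) (k : ℝ)) := by
    have := norm_setIntegral_le_of_norm_le_const (μ := volume) (f := g) (C := B) hfin
      (fun t _ => by simpa [Real.norm_eq_abs] using hg t)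
    simpa [Real.norm_eq_abs] using this
  have hv : 0 ≤ volume.real (Set.Icc (-(k : ℝ)) (k : ℝ)) := measureReal_nonneg
  rw [abs_inv, abs_of_nonneg hv]
  rcases hv.eq_or_lt with h0 | hpos
  · rw [← h0]; simpa using hB
  · calc (volume.real (Set.Icc (-(k : ℝ)) (k : ℝ)))⁻¹ *
          |∫ t in Set.Icc (-(k : ℝ)) (k : ℝ), g t|
        ≤ (volume.real (Set.Icc (-(k : ℝ)) (k : ℝ)))⁻¹ *
          (B * volume.real (Set.Icc (-(k : ℝ)) (k : ℝ))) :=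
          mul_le_mul_of_nonneg_left h1 (inv_nonneg.mpr hv)
      _ = B := by field_simp

/-- For a bounded function the `ω`-mean is a genuine limit of the window means along `ω`. -/
theorem ultraMean_tendsto (ω : Ultrafilter ℕ) (g : ℝ → ℝ) (B : ℝ) (hg : ∀ t, |g t| ≤ B) :
    Tendsto (windowMean g) (ω : Filter ℕ) (𝓝 (ultraMean ω g)) := by
  have hmem : Set.Icc (-B) B ∈ ω.map (windowMean g) := by
    rw [Ultrafilter.mem_map]
    refine Filter.mem_of_superset (Filter.univ_mem) (fun k _ => ?_)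
    exact abs_le.mp (abs_windowMean_le g B hg k)
  obtain ⟨L, -, hL⟩ := isCompact_Icc.ultrafilter_le_nhds' (ω.map (windowMean g)) hmem
  have hT : Tendsto (windowMean g) (ω : Filter ℕ) (𝓝 L) := hL
  have : ultraMean ω g = L := hT.limUnder_eq
  rw [this]; exact hT

/-- Step I.1 with "`k` large": below the `ω`-mean there are window means at arbitrarily large
window sizes. -/
theorem exists_window (ω : Ultrafilter ℕ) (hω : (ω : Filter ℕ) ≤ atTop) (g : ℝ → ℝ) (B : ℝ)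
    (hg : ∀ t, |g t| ≤ B) {c c' : ℝ} (hc : c ≤ ultraMean ω g) (hc' : c' < c) (K : ℕ) :
    ∃ k : ℕ, K ≤ k ∧ 1 ≤ k ∧ c' < windowMean g k := by
  have h1 : {k : ℕ | c' < windowMean g k} ∈ (ω : Filter ℕ) :=
    (ultraMean_tendsto ω g B hg) (Ioi_mem_nhds (lt_of_lt_of_le hc' hc))
  have h2 : {k : ℕ | max K 1 ≤ k} ∈ (ω : Filter ℕ) := hω (Filter.mem_atTop (max K 1))
  obtain ⟨k, hk1, hk2⟩ := Filter.nonempty_of_mem (Filter.inter_mem h1 h2)
  exact ⟨k, (le_max_left _ _).trans hk2, (le_max_right _ _).trans hk2, hk1⟩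

/-- Leaf I1 in the coordinator's shape: along `ω`, the window means exceed `3c/4`. -/
theorem eventually_window (ω : Ultrafilter ℕ) (f : ℝ → ℝ) (B : ℝ) (h0 : ∀ t, 0 ≤ f t)
    (hB : ∀ t, f t ≤ B) (c : ℝ) (hc : 0 < c) (h : c ≤ ultraMean ω f) :
    ∀ᶠ k in (ω : Filter ℕ), 3 * c / 4 < windowMean f k := by
  have hg : ∀ t, |f t| ≤ B := fun t => by rw [abs_of_nonneg (h0 t)]; exact hB t
  exact (ultraMean_tendsto ω f B hg) (Ioi_mem_nhds (lt_of_lt_of_le (by linarith) h))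

/-- Leaf I1 with "`k` large": arbitrarily large windows `k ≥ 1` with mean above `3c/4`. -/
theorem exists_large_window (ω : Ultrafilter ℕ) (hω : (ω : Filter ℕ) ≤ atTop) (f : ℝ → ℝ)
    (B : ℝ) (h0 : ∀ t, 0 ≤ f t) (hB : ∀ t, f t ≤ B) (c : ℝ) (hc : 0 < c)
    (h : c ≤ ultraMean ω f) (K : ℕ) :
    ∃ k : ℕ, K ≤ k ∧ 1 ≤ k ∧ 3 * c / 4 < windowMean f k :=
  exists_window ω hω f B (fun t => by rw [abs_of_nonneg (h0 t)]; exact hB t) h
    (by linarith) K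

/-- A window mean over `[-k, k]`, `k ≥ 1`, as a normalised interval integral. -/
theorem windowMean_eq (g : ℝ → ℝ) (k : ℕ) (hk : 1 ≤ k) :
    windowMean g k = (2 * (k : ℝ))⁻¹ * ∫ t in (-(k : ℝ))..(k : ℝ), g t := by
  have hk' : (0 : ℝ) < k := by exact_mod_cast hk
  unfold windowMean
  rw [setAverage_eq, smul_eq_mul, intervalIntegral.integral_of_le (by linarith),
    integral_Icc_eq_integral_Ioc]
  congr 2
  rw [Measure.real, Real.volume_Icc, ENNReal.toReal_ofReal (by linarith)]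
  ring

/-- Comparison of window means of continuous functions. -/
theorem windowMean_le_add (g₁ g₂ : ℝ → ℝ) (hg₁ : Continuous g₁) (hg₂ : Continuous g₂) (ε : ℝ)
    (h : ∀ t, g₁ t ≤ g₂ t + ε) (k : ℕ) (hk : 1 ≤ k) :
    windowMean g₁ k ≤ windowMean g₂ k + ε := by
  have hk' : (0 : ℝ) < k := by exact_mod_cast hk
  rw [windowMean_eq g₁ k hk, windowMean_eq g₂ k hk]
  have hle : (-(k : ℝ)) ≤ k := by linarith
  have h1 : ∫ t in (-(k : ℝ))..(k : ℝ), g₁ t ≤ ∫ t in (-(k : ℝ))..(k : ℝ), (g₂ t + ε) :=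
    intervalIntegral.integral_mono_on hle (hg₁.intervalIntegrable _ _)
      ((hg₂.add continuous_const).intervalIntegrable _ _) (fun t _ => h t)
  have h2 : ∫ t in (-(k : ℝ))..(k : ℝ), (g₂ t + ε) =
      (∫ t in (-(k : ℝ))..(k : ℝ), g₂ t) + (2 * (k : ℝ)) * ε := by
    rw [intervalIntegral.integral_add (hg₂.intervalIntegrable _ _)
      (continuous_const.intervalIntegrable _ _), intervalIntegral.integral_const]
    simp only [smul_eq_mul]; ring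
  have h3 : (2 * (k : ℝ))⁻¹ * ∫ t in (-(k : ℝ))..(k : ℝ), g₁ t ≤
      (2 * (k : ℝ))⁻¹ * ((∫ t in (-(k : ℝ))..(k : ℝ), g₂ t) + (2 * (k : ℝ)) * ε) := by
    rw [← h2]; exact mul_le_mul_of_nonneg_left h1 (by positivity)
  calc (2 * (k : ℝ))⁻¹ * ∫ t in (-(k : ℝ))..(k : ℝ), g₁ t
      ≤ (2 * (k : ℝ))⁻¹ * ((∫ t in (-(k : ℝ))..(k : ℝ), g₂ t) + (2 * (k : ℝ)) * ε) := h3
    _ = (2 * (k : ℝ))⁻¹ * (∫ t in (-(k : ℝ))..(k : ℝ), g₂ t) + ε := by field_simp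

section Hilbert

variable {H : Type*} [NormedAddCommGroup H] [InnerProductSpace ℂ H]

/-- Perturbation of `‖T x‖²`. -/
theorem sq_norm_perturb (T : H →L[ℂ] H) (x y : H) :
    |‖T x‖ ^ 2 - ‖T y‖ ^ 2| ≤ ‖T‖ ^ 2 * (‖x‖ + ‖y‖) * ‖x - y‖ := by
  have h1 : |‖T x‖ - ‖T y‖| ≤ ‖T‖ * ‖x - y‖ := by
    calc |‖T x‖ - ‖T y‖| ≤ ‖T x - T y‖ := abs_norm_sub_norm_le _ _
      _ = ‖T (x - y)‖ := by rw [map_sub]
      _ ≤ ‖T‖ * ‖x - y‖ := T.le_opNorm _
  have h2 : ‖T x‖ + ‖T y‖ ≤ ‖T‖ * (‖x‖ + ‖y‖) := by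
    have := T.le_opNorm x; have := T.le_opNorm y; nlinarith
  have h3 : 0 ≤ ‖T x‖ + ‖T y‖ := by positivity
  calc |‖T x‖ ^ 2 - ‖T y‖ ^ 2| = |‖T x‖ - ‖T y‖| * (‖T x‖ + ‖T y‖) := by
        rw [show ‖T x‖ ^ 2 - ‖T y‖ ^ 2 = (‖T x‖ - ‖T y‖) * (‖T x‖ + ‖T y‖) by ring, abs_mul,
          abs_of_nonneg h3]
    _ ≤ (‖T‖ * ‖x - y‖) * (‖T‖ * (‖x‖ + ‖y‖)) :=
        mul_le_mul h1 h2 h3 (by positivity)
    _ = ‖T‖ ^ 2 * (‖x‖ + ‖y‖) * ‖x - y‖ := by ring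

/-- The splitting used in I.6. -/
theorem sq_norm_le_two_add (T : H →L[ℂ] H) (x y : H) :
    ‖T x‖ ^ 2 ≤ 2 * ‖T y‖ ^ 2 + 2 * ‖T‖ ^ 2 * ‖y - x‖ ^ 2 := by
  have h1 : ‖T x‖ ≤ ‖T y‖ + ‖T‖ * ‖y - x‖ := by
    have h : T x = T y - T (y - x) := by rw [map_sub]; abel
    calc ‖T x‖ = ‖T y - T (y - x)‖ := by rw [h]
      _ ≤ ‖T y‖ + ‖T (y - x)‖ := norm_sub_le _ _
      _ ≤ ‖T y‖ + ‖T‖ * ‖y - x‖ := by gcongr; exact T.le_opNorm _
  have h0 : 0 ≤ ‖T x‖ := norm_nonneg _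
  have h2 : 0 ≤ ‖T y‖ := norm_nonneg _
  have h3 : 0 ≤ ‖T‖ * ‖y - x‖ := by positivity
  nlinarith [sq_nonneg (‖T y‖ - ‖T‖ * ‖y - x‖)]

end Hilbert

/-- Pigeonhole of I.6, with sums instead of averages: if `Σ p ≥ (c/2)·|Θ|`, `p ≤ 2 q + e`
pointwise and `Σ e ≤ (c/4)·|Θ|`, then some `θ` has `q θ ≥ c/8`. -/
theorem exists_of_avg {Θ : Type*} [Fintype Θ] [Nonempty Θ] (p q e : Θ → ℝ) (c : ℝ)
    (h1 : c / 2 * (Fintype.card Θ : ℝ) ≤ ∑ θ, p θ) (h2 : ∀ θ, p θ ≤ 2 * q θ + e θ)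
    (h3 : ∑ θ, e θ ≤ c / 4 * (Fintype.card Θ : ℝ)) : ∃ θ, c / 8 ≤ q θ := by
  by_contra hcon
  simp only [not_exists, not_le] at hcon
  have hcard : (0 : ℝ) < Fintype.card Θ := by exact_mod_cast Fintype.card_pos
  have hq : ∑ θ, q θ < ∑ _θ : Θ, c / 8 :=
    Finset.sum_lt_sum_of_nonempty Finset.univ_nonempty (fun θ _ => hcon θ)
  have hq' : ∑ θ, q θ < (Fintype.card Θ : ℝ) * (c / 8) := by
    simpa [Finset.sum_const, nsmul_eq_mul] using hq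
  have hp : ∑ θ, p θ ≤ 2 * ∑ θ, q θ + ∑ θ, e θ := by
    calc ∑ θ, p θ ≤ ∑ θ, (2 * q θ + e θ) := Finset.sum_le_sum (fun θ _ => h2 θ)
      _ = 2 * ∑ θ, q θ + ∑ θ, e θ := by rw [Finset.sum_add_distrib, Finset.mul_sum]
  nlinarith

section Final

variable {H : Type*} [NormedAddCommGroup H] [InnerProductSpace ℂ H] [CompleteSpace H]

/-- Step I.7: the per-`n` core statement implies the statement of S0112 verbatim. -/
theorem final_extraction (S : Crest.OpAlg.ModularDatum H) (ω : Ultrafilter ℕ)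
    (T : H →L[ℂ] H) (s : ℝ) (δ : ℕ → ℝ)
    (hδ0 : Filter.Tendsto δ Filter.atTop (nhds 0)) (h : ℕ → H)
    (hpos : ∃ c : ℝ, 0 < c ∧ ∃ᶠ n in Filter.atTop,
      c ≤ Crest.OpAlg.ultraMean ω (fun t : ℝ => ‖T (S.D.wave t (h n))‖ ^ 2))
    (core : ∀ c : ℝ, 0 < c → ∃ C η : ℝ, 0 < η ∧ ∀ n : ℕ, δ n ≤ 1 →
      c ≤ Crest.OpAlg.ultraMean ω (fun t : ℝ => ‖T (S.D.wave t (h n))‖ ^ 2) →
      ∃ v : H →L[ℂ] H, v ∈ S.M ∧ ‖v‖ ≤ C ∧ η ≤ ‖T (v S.vac)‖ ∧
        S.D.SupportedIn (Set.Icc (s - 4 * δ n) (s + 4 * δ n)) (v S.vac)) :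
    ∃ (n' : ℕ → ℕ) (v : ℕ → (H →L[ℂ] H)) (C η : ℝ), StrictMono n' ∧ 0 < η ∧
      ∀ j : ℕ, v j ∈ S.M ∧ ‖v j‖ ≤ C ∧ η ≤ ‖T (v j S.vac)‖ ∧
        S.D.SupportedIn (Set.Icc (s - 4 * δ (n' j)) (s + 4 * δ (n' j))) (v j S.vac) := by
  obtain ⟨c, hc, hfreq⟩ := hpos
  obtain ⟨C, η, hη, hcore⟩ := core c hc
  have hev : ∀ᶠ n in Filter.atTop, δ n ≤ 1 :=
    hδ0.eventually (Iic_mem_nhds zero_lt_one)
  obtain ⟨n', hmono, hn'⟩ := Filter.extraction_of_frequently_atTop (hfreq.and_eventually hev)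
  have hex : ∀ j : ℕ, ∃ v : H →L[ℂ] H, v ∈ S.M ∧ ‖v‖ ≤ C ∧ η ≤ ‖T (v S.vac)‖ ∧
      S.D.SupportedIn (Set.Icc (s - 4 * δ (n' j)) (s + 4 * δ (n' j))) (v S.vac) :=
    fun j => hcore (n' j) (hn' j).2 (hn' j).1
  choose v hv using hex
  exact ⟨n', v, C, η, hmono, hη, hv⟩

end Final

end Crest.Agent.Helper2.S0112
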