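import Mathlib
import Crest.Prelude.Def_ModularData
import Crest.Agent.Helper68.S0112.Calc

/-!
# S0112 (row 84) — C1 (insurance track, helper2): the vacuum is `D`-invariant

`apply_vac : S.D.apply f S.vac = f 0 • S.vac` for every bounded continuous `f`, and the corollary
`wave_vac : S.D.wave t S.vac = S.vac`, from the Tomita condition alone.

Route (no division by `1 - e^u` at `0`): with `cut m` the cut-offs of helper68's `Calc`,
`(cut m)(D) ξ = (cut m · e^u)(D) ξ`; hence `ρ_η(D) ξ = ξ` for `ρ_η = η / (η + (1 - e^u)^2)`, and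
`f ρ_η → 0` uniformly as `η → 0` when `f 0 = 0`.
-/

set_option autoImplicit false

open Filter Topology
open scoped BoundedContinuousFunction ComplexConjugate

namespace Crest.Agent.Helper2.S0112

open Crest.OpAlg Crest.OpAlg.LineCalculus Crest.Agent.Helper68.S0112

variable {H : Type*} [NormedAddCommGroup H] [InnerProductSpace ℂ H] [CompleteSpace H]

/-- The modular conjugation is antiunitary. -/
theorem inner_J_J (S : ModularDatum H) (x y : H) :
    inner ℂ (S.J x) (S.J y) = inner ℂ y x := by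
  have hI : ∀ z : H, S.J ((Complex.I : ℂ) • z) = -((Complex.I : ℂ) • S.J z) := by
    intro z
    rw [map_smulₛₗ]
    simp
  have h1 : ‖S.J x + S.J y‖ = ‖y + x‖ := by
    rw [← map_add, LinearIsometryEquiv.norm_map, add_comm]
  have h2 : ‖S.J x - S.J y‖ = ‖y - x‖ := by
    rw [← map_sub, LinearIsometryEquiv.norm_map, norm_sub_rev]
  have h3 : ‖S.J x - (Complex.I : ℂ) • S.J y‖ = ‖y - (Complex.I : ℂ) • x‖ := by
    have e1 : S.J x - (Complex.I : ℂ) • S.J y = S.J (x + (Complex.I : ℂ) • y) := by
      rw [map_add, hI]; abel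
    have e2 : y - (Complex.I : ℂ) • x = (-Complex.I : ℂ) • (x + (Complex.I : ℂ) • y) := by
      rw [smul_add, smul_smul]
      simp only [neg_mul, Complex.I_mul_I, neg_neg, one_smul, neg_smul]
      abel
    rw [e1, LinearIsometryEquiv.norm_map, e2, norm_smul]
    simp
  have h4 : ‖S.J x + (Complex.I : ℂ) • S.J y‖ = ‖y + (Complex.I : ℂ) • x‖ := by
    have e1 : S.J x + (Complex.I : ℂ) • S.J y = S.J (x - (Complex.I : ℂ) • y) := by
      rw [map_sub, hI]; abel
    have e2 : y + (Complex.I : ℂ) • x = (Complex.I : ℂ) • (x - (Complex.I : ℂ) • y) := by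
      rw [smul_sub, smul_smul]
      simp only [Complex.I_mul_I, neg_smul, one_smul]
      abel
    rw [e1, LinearIsometryEquiv.norm_map, e2, norm_smul]
    simp
  rw [inner_eq_sum_norm_sq_div_four (𝕜 := ℂ) (S.J x) (S.J y),
    inner_eq_sum_norm_sq_div_four (𝕜 := ℂ) y x]
  simp only [RCLike.I_to_complex]
  rw [h1, h2, h3, h4]

/-- The cut-off exponential `u ↦ cut m u * exp (c * u)`. -/
noncomputable def cutExp (m : ℕ) (c : ℝ) : ℝ →ᵇ ℂ :=
  BoundedContinuousFunction.ofNormedAddCommGroup
    (fun u : ℝ => cut m u * ((Real.exp (c * u) : ℝ) : ℂ))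
    ((cut m).continuous.mul (by fun_prop))
    (Real.exp (|c| * ((m : ℝ) + 1)))
    (fun u => by
      by_cases h : (m : ℝ) + 1 ≤ |u|
      · rw [cut_eq_zero h, zero_mul, norm_zero]; exact (Real.exp_pos _).le
      · rw [norm_mul, Complex.norm_real, Real.norm_eq_abs, abs_of_pos (Real.exp_pos _)]
        have h1 : Real.exp (c * u) ≤ Real.exp (|c| * ((m : ℝ) + 1)) := by
          apply Real.exp_le_exp.mpr
          have e1 : c * u ≤ |c| * |u| := by rw [← abs_mul]; exact le_abs_self _
          have e2 : |c| * |u| ≤ |c| * ((m : ℝ) + 1) :=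
            mul_le_mul_of_nonneg_left (not_le.1 h).le (abs_nonneg c)
          linarith
        calc ‖cut m u‖ * Real.exp (c * u) ≤ 1 * Real.exp (|c| * ((m : ℝ) + 1)) :=
              mul_le_mul (norm_cut_apply_le m u) h1 (Real.exp_pos _).le zero_le_one
          _ = Real.exp (|c| * ((m : ℝ) + 1)) := one_mul _)

theorem cutExp_apply (m : ℕ) (c u : ℝ) :
    cutExp m c u = cut m u * ((Real.exp (c * u) : ℝ) : ℂ) := rfl

theorem star_cutExp (m : ℕ) (c : ℝ) : star (cutExp m c) = cutExp m c := by
  ext u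
  have h : cutExp m c u = ((cutR m u * Real.exp (c * u) : ℝ) : ℂ) := by
    rw [cutExp_apply, cut_apply, Complex.ofReal_mul]
  show star (cutExp m c u) = cutExp m c u
  rw [h]
  exact Complex.conj_ofReal _

/-- Key identity: `(cut m)(D) ξ = (cut m · e^u)(D) ξ`. -/
theorem apply_cut_vac (S : ModularDatum H) (m : ℕ) :
    S.D.apply (cut m) S.vac = S.D.apply (cutExp m 1) S.vac := by
  have hmem : (S.vac, S.vac) ∈ closure (Set.range fun a : S.M =>
      ((a : H →L[ℂ] H) S.vac, star (a : H →L[ℂ] H) S.vac)) := by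
    apply subset_closure
    refine ⟨⟨1, one_mem _⟩, ?_⟩
    simp
  rw [S.tomita] at hmem
  have ha : S.D.HalfExp S.vac (S.J S.vac) := hmem
  have hb : ∀ p ∈ closure (Set.range fun a : S.M =>
      ((a : H →L[ℂ] H) S.vac, star (a : H →L[ℂ] H) S.vac)),
      inner ℂ p.2 S.vac = inner ℂ S.vac p.1 := by
    apply closure_minimal
    · rintro _ ⟨a, rfl⟩
      show inner ℂ (star (a : H →L[ℂ] H) S.vac) S.vac = inner ℂ S.vac ((a : H →L[ℂ] H) S.vac)
      rw [ContinuousLinearMap.star_eq_adjoint, ContinuousLinearMap.adjoint_inner_left]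
    · exact isClosed_eq (by fun_prop) (by fun_prop)
  have hpair : ∀ z : H, inner ℂ (S.J S.vac) (S.D.apply (cutExp m (1 / 2)) z) =
      inner ℂ S.vac (S.D.apply (cut m) z) := by
    intro z
    have hz : (S.D.apply (cut m) z, S.J (S.D.apply (cutExp m (1 / 2)) z)) ∈
        {p : H × H | S.D.HalfExp p.1 (S.J p.2)} := by
      show S.D.HalfExp (S.D.apply (cut m) z) (S.J (S.J (S.D.apply (cutExp m (1 / 2)) z)))
      rw [S.J_J]
      intro f g hfg
      rw [← apply_mul_apply, ← apply_mul_apply]
      have e : f * cutExp m (1 / 2) = g * cut m := by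
        ext u
        simp only [BoundedContinuousFunction.mul_apply, cutExp_apply, hfg u]
        rw [show (1 / 2 : ℝ) * u = u / 2 by ring]
        ring
      rw [e]
    rw [← S.tomita] at hz
    have h1 := hb _ hz
    have h2 := inner_J_J S (S.D.apply (cutExp m (1 / 2)) z) (S.J S.vac)
    rw [S.J_J] at h2
    rw [← h2]
    exact h1
  have h1 : S.D.apply (cutExp m (1 / 2)) (S.J S.vac) = S.D.apply (cut m) S.vac := by
    apply ext_inner_right ℂ
    intro z
    rw [inner_apply_left, inner_apply_left, star_cutExp, star_cut]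
    exact hpair z
  have h2 : S.D.apply (cutExp m (1 / 2)) (S.J S.vac) = S.D.apply (cutExp m 1) S.vac :=
    ha (cutExp m (1 / 2)) (cutExp m 1) (fun u => by
      simp only [cutExp_apply]
      rw [mul_assoc, ← Complex.ofReal_mul, ← Real.exp_add]
      congr 3
      ring)
  rw [← h1, h2]

/-- `ρ_η(u) = η / (η + (1 - e^u)^2)` as a bounded continuous function (`0 < η`). -/
noncomputable def rho (η : ℝ) (hη : 0 < η) : ℝ →ᵇ ℂ :=
  BoundedContinuousFunction.ofNormedAddCommGroup
    (fun u : ℝ => ((η / (η + (1 - Real.exp u) ^ 2) : ℝ) : ℂ))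
    (Complex.continuous_ofReal.comp (Continuous.div continuous_const (by fun_prop)
      (fun u => by positivity)))
    1
    (fun u => by
      rw [Complex.norm_real, Real.norm_eq_abs, abs_of_nonneg (by positivity)]
      rw [div_le_one (by positivity)]
      nlinarith [sq_nonneg (1 - Real.exp u)])

theorem rho_apply (η : ℝ) (hη : 0 < η) (u : ℝ) :
    rho η hη u = ((η / (η + (1 - Real.exp u) ^ 2) : ℝ) : ℂ) := rfl

/-- `κ_η(u) = (1 - e^u) / (η + (1 - e^u)^2)` as a bounded continuous function (`0 < η`). -/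
noncomputable def kappa (η : ℝ) (hη : 0 < η) : ℝ →ᵇ ℂ :=
  BoundedContinuousFunction.ofNormedAddCommGroup
    (fun u : ℝ => (((1 - Real.exp u) / (η + (1 - Real.exp u) ^ 2) : ℝ) : ℂ))
    (Complex.continuous_ofReal.comp (Continuous.div (by fun_prop) (by fun_prop)
      (fun u => by positivity)))
    (1 + 1 / η)
    (fun u => by
      rw [Complex.norm_real, Real.norm_eq_abs, abs_div,
        abs_of_pos (show 0 < η + (1 - Real.exp u) ^ 2 by positivity),
        div_le_iff₀ (show 0 < η + (1 - Real.exp u) ^ 2 by positivity)]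
      have h1 : 0 ≤ |1 - Real.exp u| := abs_nonneg _
      have h2 : |1 - Real.exp u| ^ 2 = (1 - Real.exp u) ^ 2 := sq_abs _
      have h3 : 0 < 1 / η := by positivity
      have h4 : 1 / η * η = 1 := by field_simp
      nlinarith [sq_nonneg (|1 - Real.exp u| - 1), mul_nonneg h3.le (sq_nonneg (1 - Real.exp u))])

theorem kappa_apply (η : ℝ) (hη : 0 < η) (u : ℝ) :
    kappa η hη u = (((1 - Real.exp u) / (η + (1 - Real.exp u) ^ 2) : ℝ) : ℂ) := rfl

/-- `ρ_η(D) ξ = ξ` for every `η > 0`. -/
theorem apply_rho_vac (S : ModularDatum H) (η : ℝ) (hη : 0 < η) :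
    S.D.apply (rho η hη) S.vac = S.vac := by
  have hzero : ∀ m : ℕ, S.D.apply (1 - rho η hη) (S.D.apply (cut m) S.vac) = 0 := by
    intro m
    have e : (1 - rho η hη) * cut m = kappa η hη * (cut m - cutExp m 1) := by
      ext u
      have h1 : (1 : ℝ →ᵇ ℂ) u = 1 := rfl
      have hpos : (η + (1 - Real.exp u) ^ 2) ≠ 0 := by positivity
      have hr : 1 - η / (η + (1 - Real.exp u) ^ 2) =
          (1 - Real.exp u) / (η + (1 - Real.exp u) ^ 2) * (1 - Real.exp (1 * u)) := by
        rw [one_mul]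
        field_simp
        ring
      have hcx : (1 : ℂ) - ((η / (η + (1 - Real.exp u) ^ 2) : ℝ) : ℂ) =
          (((1 - Real.exp u) / (η + (1 - Real.exp u) ^ 2) : ℝ) : ℂ) *
            (1 - ((Real.exp (1 * u) : ℝ) : ℂ)) := by
        rw [← Complex.ofReal_one, ← Complex.ofReal_sub, ← Complex.ofReal_sub,
          ← Complex.ofReal_mul, hr]
      simp only [BoundedContinuousFunction.mul_apply, BoundedContinuousFunction.sub_apply, h1,
        rho_apply, kappa_apply, cutExp_apply]
      rw [hcx]
      ring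
    have e2 : S.D.apply (cut m - cutExp m 1) S.vac = 0 := by
      rw [map_sub]
      show S.D.apply (cut m) S.vac - S.D.apply (cutExp m 1) S.vac = 0
      rw [apply_cut_vac S m, sub_self]
    rw [← apply_mul_apply, e, apply_mul_apply, e2, map_zero]
  have hlim : Tendsto (fun m : ℕ => S.D.apply (1 - rho η hη) (S.D.apply (cut m) S.vac)) atTop
      (𝓝 (S.D.apply (1 - rho η hη) S.vac)) :=
    ((S.D.apply (1 - rho η hη)).continuous.tendsto _).comp (tendsto_apply_cut S.D S.vac)
  have h0 : S.D.apply (1 - rho η hη) S.vac = 0 := by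
    refine tendsto_nhds_unique hlim ?_
    simp only [hzero]
    exact tendsto_const_nhds
  have e1 : S.D.apply (1 - rho η hη) S.vac = S.vac - S.D.apply (rho η hη) S.vac := by
    rw [map_sub, map_one]; rfl
  rw [e1, sub_eq_zero] at h0
  exact h0.symm

/-- The vacuum lies in the spectral subspace of `{0}`. -/
theorem supportedIn_vac (S : ModularDatum H) : S.D.SupportedIn {0} S.vac := by
  intro f hf
  have hf0 : f 0 = 0 := hf 0 rfl
  rw [← norm_le_zero_iff]
  refine le_of_forall_pos_le_add (fun tol htol => ?_)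
  rw [zero_add]
  -- continuity of `f` at `0`
  have hcont : ContinuousAt (fun u : ℝ => f u) 0 := f.continuous.continuousAt
  obtain ⟨ε, hε, hεf⟩ := Metric.continuousAt_iff.mp hcont tol htol
  have hεf' : ∀ u : ℝ, |u| < ε → ‖f u‖ ≤ tol := by
    intro u hu
    have := hεf (x := u) (by rwa [Real.dist_eq, sub_zero])
    rw [hf0, dist_zero_right] at this
    exact this.le
  set c : ℝ := 1 - Real.exp (-ε) with hc
  have hcpos : 0 < c := by
    have h1 : Real.exp (-ε) < Real.exp 0 := Real.exp_lt_exp.mpr (by linarith)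
    rw [Real.exp_zero] at h1
    linarith
  have hw : ∀ u : ℝ, ε ≤ |u| → c ^ 2 ≤ (1 - Real.exp u) ^ 2 := by
    intro u hu
    have habs : c ≤ |1 - Real.exp u| := by
      rcases le_abs.mp hu with h | h
      · -- `ε ≤ u`
        have h1 : Real.exp ε ≤ Real.exp u := Real.exp_le_exp.mpr h
        have h2 : ε + 1 ≤ Real.exp ε := Real.add_one_le_exp ε
        have h3 : -ε + 1 ≤ Real.exp (-ε) := Real.add_one_le_exp (-ε)
        have h4 : c ≤ Real.exp u - 1 := by rw [hc]; linarith
        calc c ≤ Real.exp u - 1 := h4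
          _ ≤ |Real.exp u - 1| := le_abs_self _
          _ = |1 - Real.exp u| := abs_sub_comm _ _
      · -- `ε ≤ -u`
        have h1 : Real.exp u ≤ Real.exp (-ε) := Real.exp_le_exp.mpr (by linarith)
        calc c ≤ 1 - Real.exp u := by rw [hc]; linarith
          _ ≤ |1 - Real.exp u| := le_abs_self _
    calc c ^ 2 ≤ |1 - Real.exp u| ^ 2 := pow_le_pow_left₀ hcpos.le habs 2
      _ = (1 - Real.exp u) ^ 2 := sq_abs _
  have hnf : 0 ≤ ‖f‖ := norm_nonneg f
  set η : ℝ := tol * c ^ 2 / (‖f‖ + 1) with hηdef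
  have hη : 0 < η := by positivity
  have hηle : η * (‖f‖ + 1) = tol * c ^ 2 := by rw [hηdef]; field_simp
  have hbound : ‖f * rho η hη‖ ≤ tol := by
    rw [BoundedContinuousFunction.norm_le htol.le]
    intro u
    rw [BoundedContinuousFunction.mul_apply, norm_mul, rho_apply, Complex.norm_real,
      Real.norm_eq_abs, abs_of_nonneg (by positivity)]
    have hden : 0 < η + (1 - Real.exp u) ^ 2 := by positivity
    rw [← mul_div_assoc, div_le_iff₀ hden]
    have hfu : ‖f u‖ ≤ ‖f‖ := f.norm_coe_le_norm u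
    have hfu0 : 0 ≤ ‖f u‖ := norm_nonneg _
    by_cases hu : |u| < ε
    · have h1 := hεf' u hu
      nlinarith [sq_nonneg (1 - Real.exp u)]
    · have h1 := hw u (not_lt.mp hu)
      nlinarith
  have e : S.D.apply f S.vac = S.D.apply (f * rho η hη) S.vac := by
    rw [apply_mul_apply, apply_rho_vac]
  rw [e]
  calc ‖S.D.apply (f * rho η hη) S.vac‖ ≤ ‖f * rho η hη‖ * ‖S.vac‖ :=
        norm_apply_apply_le S.D _ _
    _ ≤ tol * 1 := by rw [S.norm_vac]; exact mul_le_mul_of_nonneg_right hbound zero_le_one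
    _ = tol := mul_one _

/-- **C1.** `f(D) ξ = f(0) ξ` for every bounded continuous `f`. -/
theorem apply_vac (S : ModularDatum H) (f : ℝ →ᵇ ℂ) : S.D.apply f S.vac = f 0 • S.vac :=
  apply_eq_smul_of_supportedIn (supportedIn_vac S) (f 0) (fun u hu => by rw [hu])

/-- **C1.** The vacuum is fixed by the wave group. -/
theorem wave_vac (S : ModularDatum H) (t : ℝ) : S.D.wave t S.vac = S.vac := by
  have h := apply_vac S (character t)
  have h0 : character t 0 = 1 := by
    show Complex.exp (Complex.I * ((t * 0 : ℝ) : ℂ)) = 1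
    simp
  rw [h0, one_smul] at h
  exact h

end Crest.Agent.Helper2.S0112
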