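import Mathlib
import Crest.Prelude.Def_ModularData
import Crest.Agent.Helper68.S0112.Calc
import Crest.Agent.Helper2.S0112.Vac

/-!
# S0112 (row 84) — C2, C3, C4 (insurance track, helper2)

Consequences of the Tomita condition, on top of `Vac.lean` (C1):

* `halfExp_of_mem` : `a ∈ M ⟹ HalfExp (a ξ) (J (a⋆ ξ))`;
* `J_apply_vac` (C2) : `b ∈ M`, `b⋆ ξ ∈ E(K)`, `K ⊆ [-m, m]` ⟹ `J (b ξ) = (cut m · e^{u/2})(D) (b⋆ ξ)`;
* `norm_star_vac_le` (C2, coordinator shape);
* `kms_identity` (C3) : `⟨y⋆ ξ, a ξ⟩ = ⟨(cut m · e^u)(D) (a⋆ ξ), y ξ⟩`;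
* `kms_vector` (C4, coordinator shape).
-/

set_option autoImplicit false

open Filter Topology
open scoped BoundedContinuousFunction ComplexConjugate

namespace Crest.Agent.Helper2.S0112

open Crest.OpAlg Crest.OpAlg.LineCalculus Crest.Agent.Helper68.S0112

variable {H : Type*} [NormedAddCommGroup H] [InnerProductSpace ℂ H] [CompleteSpace H]

/-- The Tomita condition on the range: `a ∈ M ⟹ HalfExp (a ξ) (J (a⋆ ξ))`. -/
theorem halfExp_of_mem (S : ModularDatum H) (a : H →L[ℂ] H) (ha : a ∈ S.M) :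
    S.D.HalfExp (a S.vac) (S.J (star a S.vac)) := by
  have hmem : (a S.vac, star a S.vac) ∈ closure (Set.range fun a : S.M =>
      ((a : H →L[ℂ] H) S.vac, star (a : H →L[ℂ] H) S.vac)) :=
    subset_closure ⟨⟨a, ha⟩, rfl⟩
  rw [S.tomita] at hmem
  exact hmem

/-- **C2.** If `b ∈ M` and `b⋆ ξ` is spectrally supported in `K ⊆ [-m, m]`, then
`J (b ξ) = (cut m · e^{u/2})(D) (b⋆ ξ)`. -/
theorem J_apply_vac (S : ModularDatum H) (b : H →L[ℂ] H) (hb : b ∈ S.M) (K : Set ℝ) (m : ℕ)
    (hK : ∀ u ∈ K, |u| ≤ m) (hsupp : S.D.SupportedIn K (star b S.vac)) :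
    S.J (b S.vac) = S.D.apply (cutExp m (1 / 2)) (star b S.vac) := by
  have hh := halfExp_of_mem S (star b) (star_mem hb)
  rw [star_star] at hh
  have hconst : ∀ n : ℕ, m ≤ n →
      S.D.apply (cut n) (S.J (b S.vac)) = S.D.apply (cutExp m (1 / 2)) (star b S.vac) := by
    intro n hn
    rw [hh (cut n) (cutExp n (1 / 2)) (fun u => by
      rw [cutExp_apply, show (1 / 2 : ℝ) * u = u / 2 by ring])]
    refine apply_congr_of_supportedIn hsupp (fun u hu => ?_)
    have h1 : |u| ≤ (m : ℝ) := hK u hu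
    have h2 : |u| ≤ (n : ℝ) := h1.trans (by exact_mod_cast hn)
    rw [cutExp_apply, cutExp_apply, cut_eq_one h1, cut_eq_one h2]
  have hlim := tendsto_apply_cut S.D (S.J (b S.vac))
  refine tendsto_nhds_unique hlim ?_
  refine tendsto_const_nhds.congr' ?_
  filter_upwards [eventually_ge_atTop m] with n hn
  exact (hconst n hn).symm

/-- A natural number bounding `[α, β]` in absolute value. -/
theorem exists_nat_abs_le (α β : ℝ) : ∃ m : ℕ, ∀ u ∈ Set.Icc α β, |u| ≤ (m : ℝ) := by
  refine ⟨⌈max |α| |β|⌉₊, fun u hu => ?_⟩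
  have h1 : max |α| |β| ≤ (⌈max |α| |β|⌉₊ : ℝ) := Nat.le_ceil _
  have h2 : |u| ≤ max |α| |β| := by
    rw [abs_le]
    constructor
    · have : -|α| ≤ α := neg_abs_le α
      have := le_max_left |α| |β|
      linarith [hu.1]
    · have : β ≤ |β| := le_abs_self β
      have := le_max_right |α| |β|
      linarith [hu.2]
  exact h2.trans h1

/-- **C2** (coordinator shape). -/
theorem norm_star_vac_le (S : ModularDatum H) (a : H →L[ℂ] H) (ha : a ∈ S.M) (α β : ℝ)
    (h : S.D.SupportedIn (Set.Icc α β) (a S.vac)) :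
    ‖star a S.vac‖ ≤ Real.exp (β / 2) * ‖a S.vac‖ := by
  obtain ⟨m, hm⟩ := exists_nat_abs_le α β
  have hJ := J_apply_vac S (star a) (star_mem ha) (Set.Icc α β) m hm (by rwa [star_star])
  rw [star_star] at hJ
  have hnorm : ‖star a S.vac‖ = ‖S.J (star a S.vac)‖ := (LinearIsometryEquiv.norm_map _ _).symm
  rw [hnorm, hJ]
  refine norm_apply_le_of_supportedIn h (Real.exp_pos _).le (fun u hu => ?_)
  rw [cutExp_apply, norm_mul, Complex.norm_real, Real.norm_eq_abs, abs_of_pos (Real.exp_pos _)]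
  have h1 : Real.exp (1 / 2 * u) ≤ Real.exp (β / 2) :=
    Real.exp_le_exp.mpr (by linarith [hu.2])
  calc ‖cut m u‖ * Real.exp (1 / 2 * u) ≤ 1 * Real.exp (β / 2) :=
        mul_le_mul (norm_cut_apply_le m u) h1 (Real.exp_pos _).le zero_le_one
    _ = Real.exp (β / 2) := one_mul _

/-- **C3** (KMS identity). -/
theorem kms_identity (S : ModularDatum H) (a y : H →L[ℂ] H) (ha : a ∈ S.M) (hy : y ∈ S.M)
    (K : Set ℝ) (m : ℕ) (hK : ∀ u ∈ K, |u| ≤ m) (hsupp : S.D.SupportedIn K (star a S.vac)) :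
    inner ℂ (star y S.vac) (a S.vac) =
      inner ℂ (S.D.apply (cutExp m 1) (star a S.vac)) (y S.vac) := by
  have h1 : inner ℂ (star y S.vac) (a S.vac) =
      inner ℂ (S.J (a S.vac)) (S.J (star y S.vac)) := (inner_J_J S _ _).symm
  have h2 : S.D.apply (cutExp m (1 / 2)) (S.J (star y S.vac)) =
      S.D.apply (cutExp m 1) (y S.vac) :=
    halfExp_of_mem S y hy (cutExp m (1 / 2)) (cutExp m 1) (fun u => by
      simp only [cutExp_apply]
      rw [mul_assoc, ← Complex.ofReal_mul, ← Real.exp_add]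
      congr 3
      ring)
  rw [h1, J_apply_vac S a ha K m hK hsupp, inner_apply_left, star_cutExp, h2, inner_apply_right,
    star_cutExp]

/-- **C4** (coordinator shape): the KMS vector `w = a (cut m · e^u)(D) a⋆ ξ`. -/
theorem kms_vector (S : ModularDatum H) (a : H →L[ℂ] H) (ha : a ∈ S.M) (α β : ℝ)
    (h : S.D.SupportedIn (Set.Icc α β) (star a S.vac)) :
    ∃ w : H, inner ℂ S.vac w = ((‖a S.vac‖ ^ 2 : ℝ) : ℂ) ∧
      ∀ (t : ℝ) (r : H →L[ℂ] H), r ∈ S.M →
        inner ℂ (S.flow t a S.vac) (r (S.flow t a S.vac)) =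
          inner ℂ (S.D.wave t w) (r S.vac) := by
  obtain ⟨m, hm⟩ := exists_nat_abs_le α β
  refine ⟨a (S.D.apply (cutExp m 1) (star a S.vac)), ?_, ?_⟩
  · -- `⟨ξ, a z⟩ = ⟨a⋆ ξ, z⟩ = conj ⟨z, a⋆ ξ⟩ = conj ⟨a ξ, a ξ⟩`
    have h3 := kms_identity S a (star a) ha (star_mem ha) (Set.Icc α β) m hm h
    rw [star_star] at h3
    have h4 : inner ℂ S.vac (a (S.D.apply (cutExp m 1) (star a S.vac))) =
        inner ℂ (star a S.vac) (S.D.apply (cutExp m 1) (star a S.vac)) := by
      rw [ContinuousLinearMap.star_eq_adjoint, ContinuousLinearMap.adjoint_inner_left]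
    rw [h4, ← inner_conj_symm, ← h3, inner_self_eq_norm_sq_to_K]
    simp
  · intro t r hr
    set x : H →L[ℂ] H := S.flow t a with hx
    have hxM : x ∈ S.M := S.flow_mem t a ha
    have hxdef : x = S.D.wave t * a * S.D.wave (-t) := rfl
    have hstarx : star x = S.D.wave t * star a * S.D.wave (-t) := by
      rw [hxdef, star_mul, star_mul, star_wave, star_wave, neg_neg, mul_assoc]
    have hstarxvac : star x S.vac = S.D.wave t (star a S.vac) := by
      rw [hstarx]
      show S.D.wave t (star a (S.D.wave (-t) S.vac)) = _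
      rw [wave_vac]
    have hsuppx : S.D.SupportedIn (Set.Icc α β) (star x S.vac) := by
      rw [hstarxvac]; exact supportedIn_wave t h
    have hyM : star x * r ∈ S.M := mul_mem (star_mem hxM) hr
    have h3 := kms_identity S x (star x * r) hxM hyM (Set.Icc α β) m hm hsuppx
    -- left side
    have hL : inner ℂ (star (star x * r) S.vac) (x S.vac) = inner ℂ (x S.vac) (r (x S.vac)) := by
      rw [star_mul, star_star]
      show inner ℂ (star r (x S.vac)) (x S.vac) = _
      rw [ContinuousLinearMap.star_eq_adjoint, ContinuousLinearMap.adjoint_inner_left]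
    -- right side
    have hR : inner ℂ (S.D.apply (cutExp m 1) (star x S.vac)) ((star x * r) S.vac) =
        inner ℂ (S.D.wave t (a (S.D.apply (cutExp m 1) (star a S.vac)))) (r S.vac) := by
      rw [hstarxvac, ← wave_apply_comm]
      show inner ℂ _ (star x (r S.vac)) = _
      rw [ContinuousLinearMap.star_eq_adjoint x, ContinuousLinearMap.adjoint_inner_right]
      congr 1
      rw [hxdef]
      show S.D.wave t (a (S.D.wave (-t) (S.D.wave t _))) = _
      rw [wave_neg_wave]
    rw [← hL, h3, hR]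

end Crest.Agent.Helper2.S0112
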